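import Vale.Agent.Lib.P237.Main

namespace Vale.Agent.Results.P237.CylindersR3

open Vale.Agent.Lib.P237 MeasureTheory

/-- Petty's conjectured projection inequality holds, strictly, for every right cylinder in `ℝ³`
over a planar convex body: `vol(ΠK) ≥ 8 vol(K)² > (3π²/4) vol(K)²`, where `3π²/4 = κ₂³/κ₃` is
Petty's constant for `n = 3`. The same lower bound `8 vol(K)²` holds for the projection body of
every compact set containing the cylinder `K`. -/
theorem result :
    ∀ (L : Set (Fin 2 → ℝ)) (h : ℝ), Convex ℝ L → IsCompact L → (interior L).Nonempty → 0 < h →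
      (Convex ℝ (rightCylinder L h) ∧ IsCompact (rightCylinder L h) ∧
        0 < volume (rightCylinder L h) ∧
        volume (rightCylinder L h) = ENNReal.ofReal h * volume L) ∧
      8 * volume (rightCylinder L h) ^ 2 ≤ volume (projBody (rightCylinder L h)) ∧
      ENNReal.ofReal (3 * Real.pi ^ 2 / 4) * volume (rightCylinder L h) ^ 2
        < volume (projBody (rightCylinder L h)) ∧
      volume (projBody (rightCylinder L h)) ≠ ⊤ ∧
      ∀ M : Set (Fin 3 → ℝ), IsCompact M → rightCylinder L h ⊆ M →
        8 * volume (rightCylinder L h) ^ 2 ≤ volume (projBody M) := by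
  intro L h hL hLc hLi hh
  have hpos := volume_rightCylinder_pos hLi hh
  have hfin := volume_rightCylinder_ne_top hLc h
  have hmain := petty_rightCylinder hL hLc hh.le
  refine ⟨⟨convex_rightCylinder hL h, isCompact_rightCylinder hLc h, hpos,
    volume_rightCylinder L h⟩, hmain, ?_, volume_projBody_ne_top _, ?_⟩
  · refine lt_of_lt_of_le ?_ hmain
    exact ENNReal.mul_lt_mul_left (pow_ne_zero 2 hpos.ne') (ENNReal.pow_ne_top hfin)
      petty_const_three_lt
  · intro M hM hKM
    exact hmain.trans (measure_mono (projBody_mono hKM hM))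

end Vale.Agent.Results.P237.CylindersR3
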