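import Vale.Agent.Lib.P237.CapAffine
import Vale.Agent.Lib.P237.Main

namespace Vale.Agent.Results.P237.EllipsoidPlusSegment

open Vale.Agent.Lib.P237 MeasureTheory

/-- Petty's conjecture, with its equality case, for Minkowski sums of an ellipsoid and a segment.
Let `n ≥ 3`, let `T` be an invertible `n × n` matrix, `c, v ∈ ℝⁿ`, and let
`K = c + T Bⁿ + [0, v]` (`Bⁿ` the Euclidean unit ball), i.e. the Minkowski sum of the ellipsoid
`c + T Bⁿ` and the segment from `0` to `v`. Then `K` is a convex body,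
`vol(ΠK) ≥ κ_{n-1}ⁿ κ_n^{2-n} vol(K)^{n-1}`, the left side is finite, and equality holds if and
only if `v = 0`, that is, if and only if `K` is the ellipsoid `c + T Bⁿ`. -/
theorem result :
    ∀ (n : ℕ), 3 ≤ n → ∀ (T : Matrix (Fin n) (Fin n) ℝ), T.det ≠ 0 → ∀ (c v : Fin n → ℝ),
      ∀ K : Set (Fin n → ℝ),
        K = {x | ∃ b : Fin n → ℝ, ∃ s : ℝ,
          ∑ i, b i ^ 2 ≤ 1 ∧ 0 ≤ s ∧ s ≤ 1 ∧ x = c + T.mulVec b + s • v} →
        Convex ℝ K ∧ IsCompact K ∧ 0 < volume K ∧ volume (projBody K) ≠ ⊤ ∧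
        ENNReal.ofReal (kappa (n - 1) ^ n / kappa n ^ (n - 2)) * volume K ^ (n - 1)
          ≤ volume (projBody K) ∧
        (ENNReal.ofReal (kappa (n - 1) ^ n / kappa n ^ (n - 2)) * volume K ^ (n - 1)
          = volume (projBody K) ↔ v = 0) := by
  intro n hn T hT c v K hK
  obtain ⟨h1, h2, h3, h4, h5⟩ := petty_ellipsoid_segment n hn T hT c v K hK
  exact ⟨h1, h2, h3, volume_projBody_ne_top K, h4, h5⟩

end Vale.Agent.Results.P237.EllipsoidPlusSegment
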