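import Vale.Agent.Lib.P237.LowProd

namespace Vale.Agent.Results.P237.ProductBodies

open Vale.Agent.Lib.P237 MeasureTheory

/-- Petty's conjectured projection inequality holds, strictly, in every dimension `n ≥ 3` for
all finite Cartesian products of convex bodies of dimension one or two; for such `K` one has
`vol(ΠK) ≥ 2ⁿ vol(K)ⁿ⁻¹`, and the same lower bound holds for the projection body of every
compact set containing `K`. Moreover the volume of the projection body is multiplicative on
Cartesian products of arbitrary convex bodies: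
`vol(Π(K₁ × K₂)) = vol(K₂)ⁿ vol(K₁)ᵐ vol(ΠK₁) vol(ΠK₂)`. -/
theorem result :
    (∀ (n : ℕ) (K : Set (Fin n → ℝ)), LowProduct n K →
      (Convex ℝ K ∧ IsCompact K ∧ 0 < volume K) ∧
      2 ^ n * volume K ^ (n - 1) ≤ volume (projBody K) ∧
      (3 ≤ n → ENNReal.ofReal (kappa (n - 1) ^ n / kappa n ^ (n - 2)) * volume K ^ (n - 1)
        < volume (projBody K)) ∧
      volume (projBody K) ≠ ⊤ ∧
      ∀ M : Set (Fin n → ℝ), IsCompact M → K ⊆ M →
        2 ^ n * volume K ^ (n - 1) ≤ volume (projBody M)) ∧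
    (∀ (n m : ℕ) (K₁ : Set (Fin n → ℝ)) (K₂ : Set (Fin m → ℝ)),
      Convex ℝ K₁ → IsCompact K₁ → 0 < volume K₁ →
      Convex ℝ K₂ → IsCompact K₂ → 0 < volume K₂ →
      volume (projBody (prodBody K₁ K₂))
        = volume K₂ ^ n * volume (projBody K₁) * (volume K₁ ^ m * volume (projBody K₂))) := by
  refine ⟨?_, ?_⟩
  · intro n K hK
    obtain ⟨hc, hk, _, hpos, hmain⟩ := lowProduct_props hK
    have hfin : volume K ≠ ⊤ := hk.measure_lt_top.ne
    refine ⟨⟨hc, hk, hpos⟩, hmain, ?_, volume_projBody_ne_top K, ?_⟩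
    · intro hn
      refine lt_of_lt_of_le ?_ hmain
      apply ENNReal.mul_lt_mul_left (pow_ne_zero _ hpos.ne') (ENNReal.pow_ne_top hfin)
      have h := petty_const_lt n hn
      calc ENNReal.ofReal (kappa (n - 1) ^ n / kappa n ^ (n - 2))
          < ENNReal.ofReal (2 ^ n) := (ENNReal.ofReal_lt_ofReal_iff (by positivity)).2 h
        _ = 2 ^ n := by rw [ENNReal.ofReal_pow (by norm_num)]; simp
    · intro M hM hKM
      exact hmain.trans (measure_mono (projBody_mono hKM hM))
  · intro n m K₁ K₂ h₁ h₁c p₁ h₂ h₂c p₂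
    exact volume_projBody_prodBody h₁ h₁c h₂ h₂c p₁ p₂

end Vale.Agent.Results.P237.ProductBodies
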