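import Vale.Agent.Lib.P237.PClass
import Vale.Agent.Lib.P237.Main

namespace Vale.Agent.Results.P237.ProductClosure

open Vale.Agent.Lib.P237 MeasureTheory

/-- Petty's conjecture, with its equality case, on a class of convex bodies closed under
Cartesian products and invertible affine maps. `PettyClass` is generated by all convex bodies of
dimension one or two and all Minkowski sums of an ellipsoid and a segment in dimension at least
three. For every `K` of dimension `n ≥ 3` in this class:
`vol(ΠK) ≥ κ_{n-1}ⁿ κ_n^{2-n} vol(K)^{n-1}`, with equality if and only if `K` is an ellipsoid. -/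
theorem result :
    ∀ (n : ℕ) (K : Set (Fin n → ℝ)), 3 ≤ n → PettyClass n K →
      Convex ℝ K ∧ IsCompact K ∧ 0 < volume K ∧ volume (projBody K) ≠ ⊤ ∧
      ENNReal.ofReal (kappa (n - 1) ^ n / kappa n ^ (n - 2)) * volume K ^ (n - 1)
        ≤ volume (projBody K) ∧
      (ENNReal.ofReal (kappa (n - 1) ^ n / kappa n ^ (n - 2)) * volume K ^ (n - 1)
        = volume (projBody K) ↔ IsEllipsoid K) := by
  intro n K hn hK
  exact petty_class hn hK

end Vale.Agent.Results.P237.ProductClosure
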